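import Vale.Agent.P154.D8.K5.Data
import Vale.Agent.P154.ApxLemma

set_option maxRecDepth 100000

namespace Vale.Agent.P154.D8.K5

open PolyR Cert InT OutT

/-- The quotient polynomial for `j = 1`. -/
noncomputable def S1 (u : ℝ) : ℝ :=
  (85 / 16777216 : ℝ) * u ^ 0 + (1037 / 16777216 : ℝ) * u ^ 1 + (-9329 / 8388608 : ℝ) * u ^ 2 + (-32899 / 8388608 : ℝ) * u ^ 3 + (702297 / 16777216 : ℝ) * u ^ 4 + (322585 / 16777216 : ℝ) * u ^ 5 + (-3733529 / 8388608 : ℝ) * u ^ 6 + (4868029 / 8388608 : ℝ) * u ^ 7

/-- Certificate polynomial. -/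
def lpu1 : List ITm := [⟨(-29878322038712212815880775451660156250),0,0⟩,⟨1005442434461656375788152217864990234375,1,0⟩,⟨(-9411053302794881165027618408203125000000),2,0⟩,⟨(-15631559879977388910055160522460937500000),3,0⟩,⟨78582695210551853921023166656494140625000,4,0⟩,⟨17000698174523925197267421726196289062500,5,0⟩,⟨(-185348294365501141237471573409746412812500),6,0⟩,⟨113825273567616601992316991571811625784906,7,0⟩]

/-- Certificate tree. -/
def tpu1 : OutT := (A (A (A (A (A (O l) (O l)) (A (A (O l) (O l)) (O l))) (A (O l) (O l))) (A (A (O l) (O l)) (A (O l) (O l)))) (A (A (A (A (O l) (O l)) (A (A (O l) (O l)) (A (O l) (O l)))) (A (A (A (A (O l) (O l)) (A (O l) (O l))) (A (A (O l) (A (O l) (O l))) (A (A (O l) (O l)) (A (O l) (O l))))) (A (A (A (A (O l) (O l)) (A (O l) (O l))) (A (A (O l) (O l)) (A (O l) (O l)))) (A (A (A (O l) (O l)) (A (O l) (O l))) (A (O l) (O l)))))) (A (A (A (A (A (O l) (O l)) (A (O l) (O l))) (A (O l) (O l))) (A (A (O l) (O l)) (A (O l) (O l)))) (A (A (A (O l) (O l)) (A (O l) (O l))) (A (A (O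 l) (O l)) (A (A (O l) (O l)) (A (O l) (A (O l) (A (O l) (O l))))))))))

theorem hpu1 (x : ℝ) (h0 : 0 ≤ x) (h1 : x ≤ 1) : evalIL lpu1 x 0 ≤ 0 :=
  uni_le 7 65536 lpu1 (by norm_num) (by norm_num) (by decide +kernel)
    (chkOut_sound (uniPb 7 65536 lpu1) tpu1 0 32768 0 32768 (by decide +kernel)) x h0 h1

/-- Certificate polynomial. -/
def lpl1 : List ITm := [⟨(-416413570292206713929772377014160156250),0,0⟩,⟨(-1215643773548436001874506473541259765625),1,0⟩,⟨9411053302794881165027618408203125000000,2,0⟩,⟨15631559879977388910055160522460937500000,3,0⟩,⟨(-78582695210551853921023166656494140625000),4,0⟩,⟨(-17000698174523925197267421726196289062500),5,0⟩,⟨185348294365501141237471573409746412812500,6,0⟩,⟨(-113825273567616601992316991571811625784906),7,0⟩]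

/-- Certificate tree. -/
def tpl1 : OutT := (A (A (A (O l) (A (O l) (O l))) (A (A (A (O l) (O l)) (A (A (O l) (O l)) (A (O l) (A (O l) (O l))))) (A (A (A (A (O l) (O l)) (A (O l) (O l))) (A (A (O l) (O l)) (O l))) (A (A (O l) (O l)) (A (O l) (O l)))))) (A (A (A (A (O l) (O l)) (A (O l) (O l))) (A (A (O l) (O l)) (A (O l) (O l)))) (A (A (A (A (O l) (O l)) (A (O l) (O l))) (A (A (O l) (O l)) (A (A (O l) (O l)) (A (O l) (O l))))) (A (A (A (A (O l) (A (O l) (O l))) (A (A (O l) (O l)) (A (O l) (O l)))) (A (A (A (A (O l) (O l)) (A (O l) (O l))) (A (A (O l) (O l)) (A (O l) (O l)))) (A (A (A (O l) (O l)) (A (O l) (O l))) (A (A (O l) (O l)) (O l))))) (A (A (A (A (O l) (O l)) (A (O l) (O l))) (A (O l) (O l))) (A (A (O l) (O l)) (O l)))))))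

theorem hpl1 (x : ℝ) (h0 : 0 ≤ x) (h1 : x ≤ 1) : evalIL lpl1 x 0 ≤ 0 :=
  uni_le 7 65536 lpl1 (by norm_num) (by norm_num) (by decide +kernel)
    (chkOut_sound (uniPb 7 65536 lpl1) tpl1 0 32768 0 32768 (by decide +kernel)) x h0 h1

/-- Certificate polynomial. -/
def lnu1 : List ITm := [⟨(-1912212610477581620216369628906250000000),0,0⟩,⟨(-32174157902773004025220870971679687500000),1,0⟩,⟨(-150576852844718098640441894531250000000000),2,0⟩,⟨125052479039819111280441284179687500000000,3,0⟩,⟨314330780842207415684092666625976562500000,4,0⟩,⟨(-34001396349047850394534843452392578125000),5,0⟩,⟨(-185348294365501141237471573409746412812500),6,0⟩,⟨(-56912636783808300996158495785905812892453),7,0⟩]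

/-- Certificate tree. -/
def tnu1 : OutT := (A (A (A (O l) (O l)) (O l)) (A (A (O l) (A (O l) (O l))) (A (A (A (O l) (O l)) (A (A (O l) (O l)) (A (A (O l) (O l)) (A (O l) (O l))))) (A (A (A (A (O l) (O l)) (O l)) (O l)) (A (O l) (O l))))))

theorem hnu1 (x : ℝ) (h0 : 0 ≤ x) (h1 : x ≤ 1) : evalIL lnu1 x 0 ≤ 0 :=
  uni_le 7 65536 lnu1 (by norm_num) (by norm_num) (by decide +kernel)
    (chkOut_sound (uniPb 7 65536 lnu1) tnu1 0 32768 0 32768 (by decide +kernel)) x h0 h1

/-- Certificate polynomial. -/
def lnl1 : List ITm := [⟨(-26650468498701229691505432128906250000000),0,0⟩,⟨38900600753549952059984207153320312500000,1,0⟩,⟨150576852844718098640441894531250000000000,2,0⟩,⟨(-125052479039819111280441284179687500000000),3,0⟩,⟨(-314330780842207415684092666625976562500000),4,0⟩,⟨34001396349047850394534843452392578125000,5,0⟩,⟨185348294365501141237471573409746412812500,6,0⟩,⟨56912636783808300996158495785905812892453,7,0⟩]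

/-- Certificate tree. -/
def tnl1 : OutT := (A (A (O l) (A (O l) (A (A (O l) (O l)) (A (O l) (O l))))) (A (A (A (A (O l) (O l)) (O l)) (A (O l) (O l))) (A (O l) (A (O l) (A (O l) (A (O l) (O l)))))))

theorem hnl1 (x : ℝ) (h0 : 0 ≤ x) (h1 : x ≤ 1) : evalIL lnl1 x 0 ≤ 0 :=
  uni_le 7 65536 lnl1 (by norm_num) (by norm_num) (by decide +kernel)
    (chkOut_sound (uniPb 7 65536 lnl1) tnl1 0 32768 0 32768 (by decide +kernel)) x h0 h1

theorem apx1 (u : ℝ) (h0 : -(73593 / 312500 : ℝ) ≤ u) (h1 : u ≤ 2 * (73593 / 312500 : ℝ)) :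
    |((1 + u)⁻¹) ^ 1 - evalZ Ax.p1 (3 * u) / Ax.D1| ≤ Ax.e1 * |u| ^ Ax.m1 := by
  have hu : 0 < 1 + u := by norm_num at h0 ⊢; linarith
  refine apx_of_S 1 2 _ (S1 u) _ u hu ?_ ?_ ?_
  · simp only [Ax, evalZ_cons, evalZ_nil, S1]
    push_cast
    ring
  · rcases le_total 0 u with hs | hs
    · have hx := hpu1 (u / (2 * (73593 / 312500 : ℝ))) (by positivity) (by rw [div_le_one (by norm_num)]; exact h1)
      have e : evalIL lpu1 (u / (2 * (73593 / 312500 : ℝ))) 0 = 38146972656250000000000000000000000000000000 * (S1 u - Ax.e1 * (1 + u) ^ 1) := by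
        simp only [lpu1, evalIL, List.map_cons, List.map_nil, List.sum_cons, List.sum_nil, S1, Ax]
        push_cast
        ring
      rw [e] at hx
      have := cmul_nonpos (by norm_num) hx
      simp only [Ax] at this ⊢
      linarith
    · have hx := hnu1 (-u / (73593 / 312500 : ℝ)) (by apply div_nonneg <;> [linarith; norm_num]) (by rw [div_le_one (by norm_num)]; linarith)
      have e : evalIL lnu1 (-u / (73593 / 312500 : ℝ)) 0 = 2441406250000000000000000000000000000000000000 * (S1 u - Ax.e1 * (1 + u) ^ 1) := by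
        simp only [lnu1, evalIL, List.map_cons, List.map_nil, List.sum_cons, List.sum_nil, S1, Ax]
        push_cast
        ring
      rw [e] at hx
      have := cmul_nonpos (by norm_num) hx
      simp only [Ax] at this ⊢
      linarith
  · rcases le_total 0 u with hs | hs
    · have hx := hpl1 (u / (2 * (73593 / 312500 : ℝ))) (by positivity) (by rw [div_le_one (by norm_num)]; exact h1)
      have e : evalIL lpl1 (u / (2 * (73593 / 312500 : ℝ))) 0 = 38146972656250000000000000000000000000000000 * (-S1 u - Ax.e1 * (1 + u) ^ 1) := by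
        simp only [lpl1, evalIL, List.map_cons, List.map_nil, List.sum_cons, List.sum_nil, S1, Ax]
        push_cast
        ring
      rw [e] at hx
      have := cmul_nonpos (by norm_num) hx
      simp only [Ax] at this ⊢
      linarith
    · have hx := hnl1 (-u / (73593 / 312500 : ℝ)) (by apply div_nonneg <;> [linarith; norm_num]) (by rw [div_le_one (by norm_num)]; linarith)
      have e : evalIL lnl1 (-u / (73593 / 312500 : ℝ)) 0 = 2441406250000000000000000000000000000000000000 * (-S1 u - Ax.e1 * (1 + u) ^ 1) := by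
        simp only [lnl1, evalIL, List.map_cons, List.map_nil, List.sum_cons, List.sum_nil, S1, Ax]
        push_cast
        ring
      rw [e] at hx
      have := cmul_nonpos (by norm_num) hx
      simp only [Ax] at this ⊢
      linarith

/-- The quotient polynomial for `j = 2`. -/
noncomputable def S2 (u : ℝ) : ℝ :=
  (831 / 16777216 : ℝ) * u ^ 0 + (1285 / 2097152 : ℝ) * u ^ 1 + (-10875 / 1048576 : ℝ) * u ^ 2 + (-773241 / 16777216 : ℝ) * u ^ 3 + (1568081 / 4194304 : ℝ) * u ^ 4 + (8886783 / 16777216 : ℝ) * u ^ 5 + (-34736923 / 8388608 : ℝ) * u ^ 6 + (7502577 / 4194304 : ℝ) * u ^ 7 + (84731605 / 16777216 : ℝ) * u ^ 8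

/-- Certificate polynomial. -/
def lpu2 : List ITm := [⟨(-8000267115448878030292689800262451171875000),0,0⟩,⟨280875724598672604770399630069732666015625000,1,0⟩,⟨(-2757536120169202604301972314715385437011718750),2,0⟩,⟨(-5740563444725521757025271654129028320312500000),3,0⟩,⟨21932321953613884447806969165802001953125000000,4,0⟩,⟨14635824232904723903810988755889129638671875000,5,0⟩,⟨(-53890279055986197974307407618094105732421875000),6,0⟩,⟨10964176665328876724616262013792796734911125000,7,0⟩,⟨14580334450919605095781552203648875710145360721,8,0⟩]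

/-- Certificate tree. -/
def tpu2 : OutT := (A (A (A (A (A (O l) (O l)) (A (O l) (O l))) (A (O l) (O l))) (A (A (O l) (O l)) (A (O l) (O l)))) (A (A (A (A (O l) (O l)) (A (O l) (A (O l) (O l)))) (A (A (A (O l) (A (O l) (O l))) (A (A (O l) (O l)) (A (A (O l) (O l)) (A (O l) (O l))))) (A (A (A (A (O l) (O l)) (A (O l) (O l))) (A (A (O l) (O l)) (A (O l) (O l)))) (A (A (A (O l) (O l)) (O l)) (A (O l) (O l)))))) (A (A (A (A (A (O l) (O l)) (O l)) (A (O l) (O l))) (A (A (O l) (O l)) (A (O l) (O l)))) (A (A (A (O l) (O l)) (A (O l) (O l))) (A (A (O l) (O l)) (A (O l) (A (O l) (A (O l) (A (O l) (O l))))))))))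

theorem hpu2 (x : ℝ) (h0 : 0 ≤ x) (h1 : x ≤ 1) : evalIL lpu2 x 0 ≤ 0 :=
  uni_le 8 65536 lpu2 (by norm_num) (by norm_num) (by decide +kernel)
    (chkOut_sound (uniPb 8 65536 lpu2) tpu2 0 32768 0 32768 (by decide +kernel)) x h0 h1

/-- Certificate polynomial. -/
def lpl2 : List ITm := [⟨(-126092469798777528922073543071746826171875000),0,0⟩,⟨(-407189795481599503546021878719329833984375000),1,0⟩,⟨2727789459630043438664870336651802062988281250,2,0⟩,⟨5740563444725521757025271654129028320312500000,3,0⟩,⟨(-21932321953613884447806969165802001953125000000),4,0⟩,⟨(-14635824232904723903810988755889129638671875000),5,0⟩,⟨53890279055986197974307407618094105732421875000,6,0⟩,⟨(-10964176665328876724616262013792796734911125000),7,0⟩,⟨(-14580334450919605095781552203648875710145360721),8,0⟩]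

/-- Certificate tree. -/
def tpl2 : OutT := (A (A (A (O l) (A (O l) (O l))) (A (A (A (O l) (O l)) (A (A (O l) (O l)) (A (O l) (A (O l) (O l))))) (A (A (A (A (O l) (O l)) (A (O l) (O l))) (A (A (O l) (O l)) (O l))) (A (A (O l) (O l)) (O l))))) (A (A (A (A (O l) (O l)) (A (O l) (O l))) (A (A (O l) (O l)) (A (O l) (O l)))) (A (A (A (O l) (A (O l) (O l))) (A (A (O l) (O l)) (A (O l) (A (O l) (O l))))) (A (A (A (A (O l) (O l)) (A (A (O l) (O l)) (A (O l) (O l)))) (A (A (A (O l) (A (O l) (O l))) (A (A (O l) (O l)) (A (O l) (O l)))) (A (A (A (O l) (O l)) (A (O l) (O l))) (A (O l) (O l))))) (A (A (A (A (O l) (O l)) (O l)) (A (O l) (O l))) (A (A (O l) (O l)) (O l)))))))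

theorem hpl2 (x : ℝ) (h0 : 0 ≤ x) (h1 : x ≤ 1) : evalIL lpl2 x 0 ≤ 0 :=
  uni_le 8 65536 lpl2 (by norm_num) (by norm_num) (by decide +kernel)
    (chkOut_sound (uniPb 8 65536 lpl2) tpl2 0 32768 0 32768 (by decide +kernel)) x h0 h1

/-- Certificate polynomial. -/
def lnu2 : List ITm := [⟨(-2048068381554912775754928588867187500000000000),0,0⟩,⟨(-35952092748630093410611152648925781250000000000),1,0⟩,⟨(-176482311690828966675326228141784667968750000000),2,0⟩,⟨183698030231216696224808692932128906250000000000,3,0⟩,⟨350917151257822151164911506652832031250000000000,4,0⟩,⟨(-117086593863237791230487910047113037109375000000),5,0⟩,⟨(-215561116223944791897229630472376422929687500000),6,0⟩,⟨(-21928353330657753449232524027585593469822250000),7,0⟩,⟨14580334450919605095781552203648875710145360721,8,0⟩]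

/-- Certificate tree. -/
def tnu2 : OutT := (A (A (A (O l) (O l)) (O l)) (A (A (O l) (A (O l) (O l))) (A (A (A (O l) (O l)) (A (A (O l) (O l)) (A (A (O l) (O l)) (A (O l) (O l))))) (A (A (A (A (O l) (O l)) (O l)) (A (O l) (O l))) (A (O l) (O l))))))

theorem hnu2 (x : ℝ) (h0 : 0 ≤ x) (h1 : x ≤ 1) : evalIL lnu2 x 0 ≤ 0 :=
  uni_le 8 65536 lnu2 (by norm_num) (by norm_num) (by decide +kernel)
    (chkOut_sound (uniPb 8 65536 lnu2) tnu2 0 32768 0 32768 (by decide +kernel)) x h0 h1

/-- Certificate polynomial. -/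
def lnl2 : List ITm := [⟨(-32279672268487047404050827026367187500000000000),0,0⟩,⟨52120293821644736453890800476074218750000000000,1,0⟩,⟨174578525416322780074551701545715332031250000000,2,0⟩,⟨(-183698030231216696224808692932128906250000000000),3,0⟩,⟨(-350917151257822151164911506652832031250000000000),4,0⟩,⟨117086593863237791230487910047113037109375000000,5,0⟩,⟨215561116223944791897229630472376422929687500000,6,0⟩,⟨21928353330657753449232524027585593469822250000,7,0⟩,⟨(-14580334450919605095781552203648875710145360721),8,0⟩]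

/-- Certificate tree. -/
def tnl2 : OutT := (A (A (O l) (A (O l) (A (A (O l) (O l)) (A (A (O l) (O l)) (A (O l) (O l)))))) (A (A (A (A (A (O l) (O l)) (O l)) (A (O l) (O l))) (A (O l) (O l))) (A (A (O l) (O l)) (A (O l) (A (O l) (A (O l) (A (O l) (O l))))))))

theorem hnl2 (x : ℝ) (h0 : 0 ≤ x) (h1 : x ≤ 1) : evalIL lnl2 x 0 ≤ 0 :=
  uni_le 8 65536 lnl2 (by norm_num) (by norm_num) (by decide +kernel)
    (chkOut_sound (uniPb 8 65536 lnl2) tnl2 0 32768 0 32768 (by decide +kernel)) x h0 h1

theorem apx2 (u : ℝ) (h0 : -(73593 / 312500 : ℝ) ≤ u) (h1 : u ≤ 2 * (73593 / 312500 : ℝ)) :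
    |((1 + u)⁻¹) ^ 2 - evalZ Ax.p2 (3 * u) / Ax.D2| ≤ Ax.e2 * |u| ^ Ax.m2 := by
  have hu : 0 < 1 + u := by norm_num at h0 ⊢; linarith
  refine apx_of_S 2 2 _ (S2 u) _ u hu ?_ ?_ ?_
  · simp only [Ax, evalZ_cons, evalZ_nil, S2]
    push_cast
    ring
  · rcases le_total 0 u with hs | hs
    · have hx := hpu2 (u / (2 * (73593 / 312500 : ℝ))) (by positivity) (by rw [div_le_one (by norm_num)]; exact h1)
      have e : evalIL lpu2 (u / (2 * (73593 / 312500 : ℝ))) 0 = 1192092895507812500000000000000000000000000000000 * (S2 u - Ax.e2 * (1 + u) ^ 2) := by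
        simp only [lpu2, evalIL, List.map_cons, List.map_nil, List.sum_cons, List.sum_nil, S2, Ax]
        push_cast
        ring
      rw [e] at hx
      have := cmul_nonpos (by norm_num) hx
      simp only [Ax] at this ⊢
      linarith
    · have hx := hnu2 (-u / (73593 / 312500 : ℝ)) (by apply div_nonneg <;> [linarith; norm_num]) (by rw [div_le_one (by norm_num)]; linarith)
      have e : evalIL lnu2 (-u / (73593 / 312500 : ℝ)) 0 = 305175781250000000000000000000000000000000000000000 * (S2 u - Ax.e2 * (1 + u) ^ 2) := by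
        simp only [lnu2, evalIL, List.map_cons, List.map_nil, List.sum_cons, List.sum_nil, S2, Ax]
        push_cast
        ring
      rw [e] at hx
      have := cmul_nonpos (by norm_num) hx
      simp only [Ax] at this ⊢
      linarith
  · rcases le_total 0 u with hs | hs
    · have hx := hpl2 (u / (2 * (73593 / 312500 : ℝ))) (by positivity) (by rw [div_le_one (by norm_num)]; exact h1)
      have e : evalIL lpl2 (u / (2 * (73593 / 312500 : ℝ))) 0 = 1192092895507812500000000000000000000000000000000 * (-S2 u - Ax.e2 * (1 + u) ^ 2) := by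
        simp only [lpl2, evalIL, List.map_cons, List.map_nil, List.sum_cons, List.sum_nil, S2, Ax]
        push_cast
        ring
      rw [e] at hx
      have := cmul_nonpos (by norm_num) hx
      simp only [Ax] at this ⊢
      linarith
    · have hx := hnl2 (-u / (73593 / 312500 : ℝ)) (by apply div_nonneg <;> [linarith; norm_num]) (by rw [div_le_one (by norm_num)]; linarith)
      have e : evalIL lnl2 (-u / (73593 / 312500 : ℝ)) 0 = 305175781250000000000000000000000000000000000000000 * (-S2 u - Ax.e2 * (1 + u) ^ 2) := by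
        simp only [lnl2, evalIL, List.map_cons, List.map_nil, List.sum_cons, List.sum_nil, S2, Ax]
        push_cast
        ring
      rw [e] at hx
      have := cmul_nonpos (by norm_num) hx
      simp only [Ax] at this ⊢
      linarith

/-- The quotient polynomial for `j = 3`. -/
noncomputable def S3 (u : ℝ) : ℝ :=
  (-1893 / 16777216 : ℝ) * u ^ 0 + (448517 / 16777216 : ℝ) * u ^ 1 + (86281 / 1048576 : ℝ) * u ^ 2 + (-23037911 / 16777216 : ℝ) * u ^ 3 + (-34162651 / 16777216 : ℝ) * u ^ 4 + (285502195 / 16777216 : ℝ) * u ^ 5 + (32446541 / 8388608 : ℝ) * u ^ 6 + (-575281097 / 16777216 : ℝ) * u ^ 7 + (-180627273 / 8388608 : ℝ) * u ^ 8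

/-- Certificate polynomial. -/
def lpu3 : List ITm := [⟨(-19482626623101850782404653728008270263671875000),0,0⟩,⟨124473569869891775852011051028966903686523437500,1,0⟩,⟨205528989813046913241123547777533531188964843750,2,0⟩,⟨(-1712236229260282903823207016102969646453857421875),3,0⟩,⟨(-1194559242349325900806076349020004272460937500000),4,0⟩,⟨4701993898273975971290180209111289978027343750000,5,0⟩,⟨503370188802127772804598221864441690332031250000,6,0⟩,⟨(-2101772357595329600720862350141207893087165312500),7,0⟩,⟨(-621634879050753402036448047514793817263226617892),8,0⟩]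

/-- Certificate tree. -/
def tpu3 : OutT := (A (A (A (O l) (A (A (O l) (O l)) (A (A (O l) (O l)) (A (O l) (O l))))) (A (A (A (O l) (O l)) (O l)) (A (O l) (O l)))) (A (A (A (O l) (O l)) (A (O l) (O l))) (A (A (A (O l) (O l)) (A (A (O l) (O l)) (A (O l) (A (O l) (O l))))) (A (A (A (A (A (O l) (O l)) (A (O l) (O l))) (A (A (O l) (O l)) (O l))) (A (A (O l) (O l)) (O l))) (A (A (O l) (O l)) (O l))))))

theorem hpu3 (x : ℝ) (h0 : 0 ≤ x) (h1 : x ≤ 1) : evalIL lpu3 x 0 ≤ 0 :=
  uni_le 8 65536 lpu3 (by norm_num) (by norm_num) (by decide +kernel)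
    (chkOut_sound (uniPb 8 65536 lpu3) tpu3 0 32768 0 32768 (by decide +kernel)) x h0 h1

/-- Certificate polynomial. -/
def lpl3 : List ITm := [⟨(-16792511825514111478696577250957489013671875000),0,0⟩,⟨(-175729818135792470457090530544519424438476562500),1,0⟩,⟨(-229670436716294464076781878247857093811035156250),2,0⟩,⟨1708446060722788083538089995272457599639892578125,3,0⟩,⟨1194559242349325900806076349020004272460937500000,4,0⟩,⟨(-4701993898273975971290180209111289978027343750000),5,0⟩,⟨(-503370188802127772804598221864441690332031250000),6,0⟩,⟨2101772357595329600720862350141207893087165312500,7,0⟩,⟨621634879050753402036448047514793817263226617892,8,0⟩]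

/-- Certificate tree. -/
def tpl3 : OutT := (A (A (A (O l) (O l)) (A (O l) (A (O l) (A (O l) (O l))))) (A (A (A (A (O l) (A (O l) (O l))) (A (A (A (O l) (O l)) (A (O l) (O l))) (A (A (O l) (O l)) (A (O l) (O l))))) (A (A (A (O l) (O l)) (A (O l) (O l))) (A (O l) (O l)))) (A (A (A (O l) (O l)) (O l)) (A (O l) (A (O l) (A (O l) (A (O l) (A (O l) (O l)))))))))

theorem hpl3 (x : ℝ) (h0 : 0 ≤ x) (h1 : x ≤ 1) : evalIL lpl3 x 0 ≤ 0 :=
  uni_le 8 65536 lpl3 (by norm_num) (by norm_num) (by decide +kernel)
    (chkOut_sound (uniPb 8 65536 lpl3) tpl3 0 32768 0 32768 (by decide +kernel)) x h0 h1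

/-- Certificate polynomial. -/
def lnu3 : List ITm := [⟨(-1246888103878518450073897838592529296875000000000),0,0⟩,⟨(-3983154235836536827264353632926940917968750000000),1,0⟩,⟨3288463837008750611857976764440536499023437500000,2,0⟩,⟨13697889834082263230585656128823757171630859375000,3,0⟩,⟨(-4778236969397303603224305396080017089843750000000),4,0⟩,⟨(-9403987796547951942580360418222579956054687500000),5,0⟩,⟨503370188802127772804598221864441690332031250000,6,0⟩,⟨1050886178797664800360431175070603946543582656250,7,0⟩,⟨(-155408719762688350509112011878698454315806654473),8,0⟩]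

/-- Certificate tree. -/
def tnu3 : OutT := (A (O l) (A (A (O l) (A (O l) (O l))) (A (A (A (O l) (A (O l) (O l))) (A (A (O l) (O l)) (A (O l) (O l)))) (A (A (O l) (O l)) (O l)))))

theorem hnu3 (x : ℝ) (h0 : 0 ≤ x) (h1 : x ≤ 1) : evalIL lnu3 x 0 ≤ 0 :=
  uni_le 8 65536 lnu3 (by norm_num) (by norm_num) (by decide +kernel)
    (chkOut_sound (uniPb 8 65536 lnu3) tnu3 0 32768 0 32768 (by decide +kernel)) x h0 h1

/-- Certificate polynomial. -/
def lnl3 : List ITm := [⟨(-1074720756832903134636580944061279296875000000000),0,0⟩,⟨5623354180345359054626896977424621582031250000000,1,0⟩,⟨(-3674726987460711425228510051965713500976562500000),2,0⟩,⟨(-13667568485782304668304719962179660797119140625000),3,0⟩,⟨4778236969397303603224305396080017089843750000000,4,0⟩,⟨9403987796547951942580360418222579956054687500000,5,0⟩,⟨(-503370188802127772804598221864441690332031250000),6,0⟩,⟨(-1050886178797664800360431175070603946543582656250),7,0⟩,⟨155408719762688350509112011878698454315806654473,8,0⟩]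

/-- Certificate tree. -/
def tnl3 : OutT := (A (A (A (O l) (A (O l) (O l))) (A (A (A (O l) (O l)) (A (O l) (O l))) (A (A (O l) (O l)) (O l)))) (A (A (O l) (O l)) (A (O l) (A (O l) (A (O l) (A (O l) (O l)))))))

theorem hnl3 (x : ℝ) (h0 : 0 ≤ x) (h1 : x ≤ 1) : evalIL lnl3 x 0 ≤ 0 :=
  uni_le 8 65536 lnl3 (by norm_num) (by norm_num) (by decide +kernel)
    (chkOut_sound (uniPb 8 65536 lnl3) tnl3 0 32768 0 32768 (by decide +kernel)) x h0 h1

theorem apx3 (u : ℝ) (h0 : -(73593 / 312500 : ℝ) ≤ u) (h1 : u ≤ 2 * (73593 / 312500 : ℝ)) :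
    |((1 + u)⁻¹) ^ 3 - evalZ Ax.p3 (3 * u) / Ax.D3| ≤ Ax.e3 * |u| ^ Ax.m3 := by
  have hu : 0 < 1 + u := by norm_num at h0 ⊢; linarith
  refine apx_of_S 3 2 _ (S3 u) _ u hu ?_ ?_ ?_
  · simp only [Ax, evalZ_cons, evalZ_nil, S3]
    push_cast
    ring
  · rcases le_total 0 u with hs | hs
    · have hx := hpu3 (u / (2 * (73593 / 312500 : ℝ))) (by positivity) (by rw [div_le_one (by norm_num)]; exact h1)
      have e : evalIL lpu3 (u / (2 * (73593 / 312500 : ℝ))) 0 = 11920928955078125000000000000000000000000000000000 * (S3 u - Ax.e3 * (1 + u) ^ 3) := by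
        simp only [lpu3, evalIL, List.map_cons, List.map_nil, List.sum_cons, List.sum_nil, S3, Ax]
        push_cast
        ring
      rw [e] at hx
      have := cmul_nonpos (by norm_num) hx
      simp only [Ax] at this ⊢
      linarith
    · have hx := hnu3 (-u / (73593 / 312500 : ℝ)) (by apply div_nonneg <;> [linarith; norm_num]) (by rw [div_le_one (by norm_num)]; linarith)
      have e : evalIL lnu3 (-u / (73593 / 312500 : ℝ)) 0 = 762939453125000000000000000000000000000000000000000 * (S3 u - Ax.e3 * (1 + u) ^ 3) := by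
        simp only [lnu3, evalIL, List.map_cons, List.map_nil, List.sum_cons, List.sum_nil, S3, Ax]
        push_cast
        ring
      rw [e] at hx
      have := cmul_nonpos (by norm_num) hx
      simp only [Ax] at this ⊢
      linarith
  · rcases le_total 0 u with hs | hs
    · have hx := hpl3 (u / (2 * (73593 / 312500 : ℝ))) (by positivity) (by rw [div_le_one (by norm_num)]; exact h1)
      have e : evalIL lpl3 (u / (2 * (73593 / 312500 : ℝ))) 0 = 11920928955078125000000000000000000000000000000000 * (-S3 u - Ax.e3 * (1 + u) ^ 3) := by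
        simp only [lpl3, evalIL, List.map_cons, List.map_nil, List.sum_cons, List.sum_nil, S3, Ax]
        push_cast
        ring
      rw [e] at hx
      have := cmul_nonpos (by norm_num) hx
      simp only [Ax] at this ⊢
      linarith
    · have hx := hnl3 (-u / (73593 / 312500 : ℝ)) (by apply div_nonneg <;> [linarith; norm_num]) (by rw [div_le_one (by norm_num)]; linarith)
      have e : evalIL lnl3 (-u / (73593 / 312500 : ℝ)) 0 = 762939453125000000000000000000000000000000000000000 * (-S3 u - Ax.e3 * (1 + u) ^ 3) := by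
        simp only [lnl3, evalIL, List.map_cons, List.map_nil, List.sum_cons, List.sum_nil, S3, Ax]
        push_cast
        ring
      rw [e] at hx
      have := cmul_nonpos (by norm_num) hx
      simp only [Ax] at this ⊢
      linarith

/-- The quotient polynomial for `j = 4`. -/
noncomputable def S4 (u : ℝ) : ℝ :=
  (-193525 / 8388608 : ℝ) * u ^ 0 + (177105 / 8388608 : ℝ) * u ^ 1 + (24350649 / 8388608 : ℝ) * u ^ 2 + (1694173 / 524288 : ℝ) * u ^ 3 + (-46582387 / 1048576 : ℝ) * u ^ 4 + (-285094199 / 8388608 : ℝ) * u ^ 5 + (918130469 / 8388608 : ℝ) * u ^ 6 + (646287675 / 4194304 : ℝ) * u ^ 7 + (456747919 / 8388608 : ℝ) * u ^ 8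

/-- Certificate polynomial. -/
def lpu4 : List ITm := [⟨(-1139718430742675536748720332980155944824218750000),0,0⟩,⟨(-873878140870942843321245163679122924804687500000),1,0⟩,⟨14568130921511938284311327151954174041748046875000,2,0⟩,⟨7803205686108321546153095550835132598876953125000,3,0⟩,⟨(-52151832346287942525099281931035220623016357421875),4,0⟩,⟨(-18781098115638748936136493427411102294921875000000),5,0⟩,⟨28487443855757451633627831749274346597851562500000,6,0⟩,⟨18889542207496578438885356975569766317768687500000,7,0⟩,⟨3143826872526036660724186516993977955356110956152,8,0⟩]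

/-- Certificate tree. -/
def tpu4 : OutT := (A (A (O l) (A (A (O l) (A (O l) (O l))) (A (A (O l) (A (O l) (O l))) (A (A (O l) (O l)) (O l))))) (A (A (A (A (O l) (O l)) (O l)) (A (O l) (O l))) (A (O l) (A (O l) (A (O l) (A (O l) (A (O l) (O l))))))))

theorem hpu4 (x : ℝ) (h0 : 0 ≤ x) (h1 : x ≤ 1) : evalIL lpu4 x 0 ≤ 0 :=
  uni_le 8 65536 lpu4 (by norm_num) (by norm_num) (by decide +kernel)
    (chkOut_sound (uniPb 8 65536 lpu4) tpu4 0 32768 0 32768 (by decide +kernel)) x h0 h1

/-- Certificate polynomial. -/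
def lpl4 : List ITm := [⟨(-39656167238888428983045741915702819824218750000),0,0⟩,⟨(-1348040957734042422089260071516036987304687500000),1,0⟩,⟨(-16137900766858850418429938144981861114501953125000),2,0⟩,⟨(-8296108394283746846147510223090648651123046875000),3,0⟩,⟨52093793643883536006535299596674740314483642578125,4,0⟩,⟨18781098115638748936136493427411102294921875000000,5,0⟩,⟨(-28487443855757451633627831749274346597851562500000),6,0⟩,⟨(-18889542207496578438885356975569766317768687500000),7,0⟩,⟨(-3143826872526036660724186516993977955356110956152),8,0⟩]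

/-- Certificate tree. -/
def tpl4 : OutT := (A (A (A (A (O l) (O l)) (O l)) (A (O l) (O l))) (A (A (O l) (A (O l) (O l))) (A (A (A (O l) (A (O l) (O l))) (A (A (A (O l) (O l)) (A (O l) (O l))) (A (A (O l) (O l)) (O l)))) (A (A (A (O l) (O l)) (O l)) (O l)))))

theorem hpl4 (x : ℝ) (h0 : 0 ≤ x) (h1 : x ≤ 1) : evalIL lpl4 x 0 ≤ 0 :=
  uni_le 8 65536 lpl4 (by norm_num) (by norm_num) (by decide +kernel)
    (chkOut_sound (uniPb 8 65536 lpl4) tpl4 0 32768 0 32768 (by decide +kernel)) x h0 h1

/-- Certificate polynomial. -/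
def lnu4 : List ITm := [⟨(-36470989783765617175959050655364990234375000000000),0,0⟩,⟨13982050253935085493139922618865966796875000000000,1,0⟩,⟨116545047372095506274490617215633392333984375000000,2,0⟩,⟨(-31212822744433286184612382203340530395507812500000),3,0⟩,⟨(-104303664692575885050198563862070441246032714843750),4,0⟩,⟨18781098115638748936136493427411102294921875000000,5,0⟩,⟨14243721927878725816813915874637173298925781250000,6,0⟩,⟨(-4722385551874144609721339243892441579442171875000),7,0⟩,⟨392978359065754582590523314624247244419513869519,8,0⟩]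

/-- Certificate tree. -/
def tnu4 : OutT := (A (A (O l) (O l)) (A (A (O l) (A (O l) (A (O l) (A (O l) (O l))))) (A (A (A (A (O l) (O l)) (A (O l) (O l))) (A (O l) (O l))) (A (O l) (O l)))))

theorem hnu4 (x : ℝ) (h0 : 0 ≤ x) (h1 : x ≤ 1) : evalIL lnu4 x 0 ≤ 0 :=
  uni_le 8 65536 lnu4 (by norm_num) (by norm_num) (by decide +kernel)
    (chkOut_sound (uniPb 8 65536 lnu4) tnu4 0 32768 0 32768 (by decide +kernel)) x h0 h1

/-- Certificate polynomial. -/
def lnl4 : List ITm := [⟨(-1268997351644429727457463741302490234375000000000),0,0⟩,⟨21568655323744678753428161144256591796875000000000,1,0⟩,⟨(-129103206134870803347439505159854888916015625000000),2,0⟩,⟨33184433577134987384590040892362594604492187500000,3,0⟩,⟨104187587287767072013070599193349480628967285156250,4,0⟩,⟨(-18781098115638748936136493427411102294921875000000),5,0⟩,⟨(-14243721927878725816813915874637173298925781250000),6,0⟩,⟨4722385551874144609721339243892441579442171875000,7,0⟩,⟨(-392978359065754582590523314624247244419513869519),8,0⟩]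

/-- Certificate tree. -/
def tnl4 : OutT := (A (A (A (A (O l) (O l)) (A (O l) (O l))) (A (O l) (O l))) (A (O l) (A (O l) (A (O l) (A (O l) (A (O l) (O l)))))))

theorem hnl4 (x : ℝ) (h0 : 0 ≤ x) (h1 : x ≤ 1) : evalIL lnl4 x 0 ≤ 0 :=
  uni_le 8 65536 lnl4 (by norm_num) (by norm_num) (by decide +kernel)
    (chkOut_sound (uniPb 8 65536 lnl4) tnl4 0 32768 0 32768 (by decide +kernel)) x h0 h1

theorem apx4 (u : ℝ) (h0 : -(73593 / 312500 : ℝ) ≤ u) (h1 : u ≤ 2 * (73593 / 312500 : ℝ)) :
    |((1 + u)⁻¹) ^ 4 - evalZ Ax.p4 (3 * u) / Ax.D4| ≤ Ax.e4 * |u| ^ Ax.m4 := by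
  have hu : 0 < 1 + u := by norm_num at h0 ⊢; linarith
  refine apx_of_S 4 2 _ (S4 u) _ u hu ?_ ?_ ?_
  · simp only [Ax, evalZ_cons, evalZ_nil, S4]
    push_cast
    ring
  · rcases le_total 0 u with hs | hs
    · have hx := hpu4 (u / (2 * (73593 / 312500 : ℝ))) (by positivity) (by rw [div_le_one (by norm_num)]; exact h1)
      have e : evalIL lpu4 (u / (2 * (73593 / 312500 : ℝ))) 0 = 23841857910156250000000000000000000000000000000000 * (S4 u - Ax.e4 * (1 + u) ^ 4) := by
        simp only [lpu4, evalIL, List.map_cons, List.map_nil, List.sum_cons, List.sum_nil, S4, Ax]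
        push_cast
        ring
      rw [e] at hx
      have := cmul_nonpos (by norm_num) hx
      simp only [Ax] at this ⊢
      linarith
    · have hx := hnu4 (-u / (73593 / 312500 : ℝ)) (by apply div_nonneg <;> [linarith; norm_num]) (by rw [div_le_one (by norm_num)]; linarith)
      have e : evalIL lnu4 (-u / (73593 / 312500 : ℝ)) 0 = 762939453125000000000000000000000000000000000000000 * (S4 u - Ax.e4 * (1 + u) ^ 4) := by
        simp only [lnu4, evalIL, List.map_cons, List.map_nil, List.sum_cons, List.sum_nil, S4, Ax]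
        push_cast
        ring
      rw [e] at hx
      have := cmul_nonpos (by norm_num) hx
      simp only [Ax] at this ⊢
      linarith
  · rcases le_total 0 u with hs | hs
    · have hx := hpl4 (u / (2 * (73593 / 312500 : ℝ))) (by positivity) (by rw [div_le_one (by norm_num)]; exact h1)
      have e : evalIL lpl4 (u / (2 * (73593 / 312500 : ℝ))) 0 = 23841857910156250000000000000000000000000000000000 * (-S4 u - Ax.e4 * (1 + u) ^ 4) := by
        simp only [lpl4, evalIL, List.map_cons, List.map_nil, List.sum_cons, List.sum_nil, S4, Ax]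
        push_cast
        ring
      rw [e] at hx
      have := cmul_nonpos (by norm_num) hx
      simp only [Ax] at this ⊢
      linarith
    · have hx := hnl4 (-u / (73593 / 312500 : ℝ)) (by apply div_nonneg <;> [linarith; norm_num]) (by rw [div_le_one (by norm_num)]; linarith)
      have e : evalIL lnl4 (-u / (73593 / 312500 : ℝ)) 0 = 762939453125000000000000000000000000000000000000000 * (-S4 u - Ax.e4 * (1 + u) ^ 4) := by
        simp only [lnl4, evalIL, List.map_cons, List.map_nil, List.sum_cons, List.sum_nil, S4, Ax]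
        push_cast
        ring
      rw [e] at hx
      have := cmul_nonpos (by norm_num) hx
      simp only [Ax] at this ⊢
      linarith

/-- The quotient polynomial for `j = 5`. -/
noncomputable def S5 (u : ℝ) : ℝ :=
  (-1036783 / 16777216 : ℝ) * u ^ 0 + (610003 / 16777216 : ℝ) * u ^ 1 + (134234561 / 16777216 : ℝ) * u ^ 2 + (251474017 / 16777216 : ℝ) * u ^ 3 + (-1918115393 / 16777216 : ℝ) * u ^ 4 + (-3301331173 / 16777216 : ℝ) * u ^ 5 + (3660109243 / 16777216 : ℝ) * u ^ 6 + (11522318971 / 16777216 : ℝ) * u ^ 7 + (2212106589 / 4194304 : ℝ) * u ^ 8 + (1133661691 / 8388608 : ℝ) * u ^ 9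

/-- Certificate polynomial. -/
def lpu5 : List ITm := [⟨(-240226397801857061153896211180835962295532226562500000),0,0⟩,⟨(-262757800072610514519055868731811642646789550781250000),1,0⟩,⟨3028473095366438945745812816312536597251892089843750000,2,0⟩,⟨2786379254581230310280696357949636876583099365234375000,3,0⟩,⟨(-10510535854241487832317679056554334238171577453613281250),4,0⟩,⟨(-8498258931766957100655081650665135122835636138916015625),5,0⟩,⟨4436118766205028024282296533808988404136657714843750000,6,0⟩,⟨6577570196480199520016083853620781601619460302734375000,7,0⟩,⟨2379074926403122803295797044557572983013142395236250000,8,0⟩,⟨287125673650181126484729990020023060327801975334355852,9,0⟩]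

/-- Certificate tree. -/
def tpu5 : OutT := (A (A (O l) (A (A (O l) (A (O l) (O l))) (A (A (A (O l) (O l)) (A (O l) (O l))) (A (A (O l) (O l)) (O l))))) (A (A (A (A (O l) (O l)) (O l)) (A (O l) (O l))) (A (O l) (A (O l) (A (O l) (A (O l) (A (O l) (O l))))))))

theorem hpu5 (x : ℝ) (h0 : 0 ≤ x) (h1 : x ≤ 1) : evalIL lpu5 x 0 ≤ 0 :=
  uni_le 9 65536 lpu5 (by norm_num) (by norm_num) (by decide +kernel)
    (chkOut_sound (uniPb 9 65536 lpu5) tpu5 0 32768 0 32768 (by decide +kernel)) x h0 h1

/-- Certificate polynomial. -/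
def lpl5 : List ITm := [⟨(-10014326173868326463889388833194971084594726562500000),0,0⟩,⟨(-326553099112847355911526392446830868721008300781250000),1,0⟩,⟨(-3583598305014508079295865172753110527992248535156250000),2,0⟩,⟨(-3047840563724464561450929977581836283206939697265625000),3,0⟩,⟨10448962343445398109929291847691638395190238952636718750,4,0⟩,⟨8492458766160535813052229068441989682614803314208984375,5,0⟩,⟨(-4436118766205028024282296533808988404136657714843750000),6,0⟩,⟨(-6577570196480199520016083853620781601619460302734375000),7,0⟩,⟨(-2379074926403122803295797044557572983013142395236250000),8,0⟩,⟨(-287125673650181126484729990020023060327801975334355852),9,0⟩]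

/-- Certificate tree. -/
def tpl5 : OutT := (A (A (A (A (O l) (O l)) (O l)) (A (O l) (O l))) (A (A (O l) (A (O l) (O l))) (A (A (A (O l) (A (O l) (O l))) (A (A (A (O l) (O l)) (A (O l) (O l))) (A (A (O l) (O l)) (O l)))) (A (A (A (O l) (O l)) (O l)) (O l)))))

theorem hpl5 (x : ℝ) (h0 : 0 ≤ x) (h1 : x ≤ 1) : evalIL lpl5 x 0 ≤ 0 :=
  uni_le 9 65536 lpl5 (by norm_num) (by norm_num) (by decide +kernel)
    (chkOut_sound (uniPb 9 65536 lpl5) tpl5 0 32768 0 32768 (by decide +kernel)) x h0 h1

/-- Certificate polynomial. -/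
def lnu5 : List ITm := [⟨(-30748978918637703827698715031147003173828125000000000000),0,0⟩,⟨16816499204647072929219575598835945129394531250000000000,1,0⟩,⟨96911139051726046263866010122001171112060546875000000000,2,0⟩,⟨(-44582068073299684964491141727194190025329589843750000000),3,0⟩,⟨(-84084286833931902658541432452434673905372619628906250000),4,0⟩,⟨33993035727067828402620326602660540491342544555664062500,5,0⟩,⟨8872237532410056048564593067617976808273315429687500000,6,0⟩,⟨(-6577570196480199520016083853620781601619460302734375000),7,0⟩,⟨1189537463201561401647898522278786491506571197618125000,8,0⟩,⟨(-71781418412545281621182497505005765081950493833588963),9,0⟩]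

/-- Certificate tree. -/
def tnu5 : OutT := (A (A (O l) (O l)) (A (A (O l) (A (O l) (A (O l) (A (O l) (O l))))) (A (A (A (A (O l) (O l)) (A (O l) (O l))) (A (O l) (O l))) (A (O l) (O l)))))

theorem hnu5 (x : ℝ) (h0 : 0 ≤ x) (h1 : x ≤ 1) : evalIL lnu5 x 0 ≤ 0 :=
  uni_le 9 65536 lnu5 (by norm_num) (by norm_num) (by decide +kernel)
    (chkOut_sound (uniPb 9 65536 lnu5) tnu5 0 32768 0 32768 (by decide +kernel)) x h0 h1

/-- Certificate polynomial. -/
def lnl5 : List ITm := [⟨(-1281833750255145787377841770648956298828125000000000000),0,0⟩,⟨20899398343222230778337689116597175598144531250000000000,1,0⟩,⟨(-114675145760464258537467685528099536895751953125000000000),2,0⟩,⟨48765449019591432983214879641309380531311035156250000000,3,0⟩,⟨83591698747563184879434334781533107161521911621093750000,4,0⟩,⟨(-33969835064642143252208916273767958730459213256835937500),5,0⟩,⟨(-8872237532410056048564593067617976808273315429687500000),6,0⟩,⟨6577570196480199520016083853620781601619460302734375000,7,0⟩,⟨(-1189537463201561401647898522278786491506571197618125000),8,0⟩,⟨71781418412545281621182497505005765081950493833588963,9,0⟩]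

/-- Certificate tree. -/
def tnl5 : OutT := (A (A (A (A (O l) (O l)) (A (O l) (O l))) (A (O l) (O l))) (A (O l) (A (O l) (A (O l) (A (O l) (A (O l) (O l)))))))

theorem hnl5 (x : ℝ) (h0 : 0 ≤ x) (h1 : x ≤ 1) : evalIL lnl5 x 0 ≤ 0 :=
  uni_le 9 65536 lnl5 (by norm_num) (by norm_num) (by decide +kernel)
    (chkOut_sound (uniPb 9 65536 lnl5) tnl5 0 32768 0 32768 (by decide +kernel)) x h0 h1

theorem apx5 (u : ℝ) (h0 : -(73593 / 312500 : ℝ) ≤ u) (h1 : u ≤ 2 * (73593 / 312500 : ℝ)) :
    |((1 + u)⁻¹) ^ 5 - evalZ Ax.p5 (3 * u) / Ax.D5| ≤ Ax.e5 * |u| ^ Ax.m5 := by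
  have hu : 0 < 1 + u := by norm_num at h0 ⊢; linarith
  refine apx_of_S 5 2 _ (S5 u) _ u hu ?_ ?_ ?_
  · simp only [Ax, evalZ_cons, evalZ_nil, S5]
    push_cast
    ring
  · rcases le_total 0 u with hs | hs
    · have hx := hpu5 (u / (2 * (73593 / 312500 : ℝ))) (by positivity) (by rw [div_le_one (by norm_num)]; exact h1)
      have e : evalIL lpu5 (u / (2 * (73593 / 312500 : ℝ))) 0 = 1862645149230957031250000000000000000000000000000000000 * (S5 u - Ax.e5 * (1 + u) ^ 5) := by
        simp only [lpu5, evalIL, List.map_cons, List.map_nil, List.sum_cons, List.sum_nil, S5, Ax]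
        push_cast
        ring
      rw [e] at hx
      have := cmul_nonpos (by norm_num) hx
      simp only [Ax] at this ⊢
      linarith
    · have hx := hnu5 (-u / (73593 / 312500 : ℝ)) (by apply div_nonneg <;> [linarith; norm_num]) (by rw [div_le_one (by norm_num)]; linarith)
      have e : evalIL lnu5 (-u / (73593 / 312500 : ℝ)) 0 = 238418579101562500000000000000000000000000000000000000000 * (S5 u - Ax.e5 * (1 + u) ^ 5) := by
        simp only [lnu5, evalIL, List.map_cons, List.map_nil, List.sum_cons, List.sum_nil, S5, Ax]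
        push_cast
        ring
      rw [e] at hx
      have := cmul_nonpos (by norm_num) hx
      simp only [Ax] at this ⊢
      linarith
  · rcases le_total 0 u with hs | hs
    · have hx := hpl5 (u / (2 * (73593 / 312500 : ℝ))) (by positivity) (by rw [div_le_one (by norm_num)]; exact h1)
      have e : evalIL lpl5 (u / (2 * (73593 / 312500 : ℝ))) 0 = 1862645149230957031250000000000000000000000000000000000 * (-S5 u - Ax.e5 * (1 + u) ^ 5) := by
        simp only [lpl5, evalIL, List.map_cons, List.map_nil, List.sum_cons, List.sum_nil, S5, Ax]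
        push_cast
        ring
      rw [e] at hx
      have := cmul_nonpos (by norm_num) hx
      simp only [Ax] at this ⊢
      linarith
    · have hx := hnl5 (-u / (73593 / 312500 : ℝ)) (by apply div_nonneg <;> [linarith; norm_num]) (by rw [div_le_one (by norm_num)]; linarith)
      have e : evalIL lnl5 (-u / (73593 / 312500 : ℝ)) 0 = 238418579101562500000000000000000000000000000000000000000 * (-S5 u - Ax.e5 * (1 + u) ^ 5) := by
        simp only [lnl5, evalIL, List.map_cons, List.map_nil, List.sum_cons, List.sum_nil, S5, Ax]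
        push_cast
        ring
      rw [e] at hx
      have := cmul_nonpos (by norm_num) hx
      simp only [Ax] at this ⊢
      linarith

theorem hAx : Ax.OK (-(73593 / 312500 : ℝ)) (2 * (73593 / 312500 : ℝ)) where
  e10 := by simp only [Ax]; norm_num
  e20 := by simp only [Ax]; norm_num
  e30 := by simp only [Ax]; norm_num
  e40 := by simp only [Ax]; norm_num
  e50 := by simp only [Ax]; norm_num
  h1 := fun u a b => by simpa using apx1 u a b
  h2 := apx2
  h3 := apx3
  h4 := apx4
  h5 := apx5

end Vale.Agent.P154.D8.K5
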